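import Vale.Agent.P329.Schutz2

namespace Vale.Agent.P329

variable {A : Type}

/-- A class of languages closed under union, product and complement that contains the
constants and the letters. -/
structure BC (C : Language A → Prop) : Prop where
  zero : C 0
  one : C 1
  letter : ∀ a : A, C {[a]}
  add : ∀ {L K : Language A}, C L → C K → C (L + K)
  mul : ∀ {L K : Language A}, C L → C K → C (L * K)
  compl : ∀ {L : Language A}, C L → C Lᶜ

/-- B0. The languages of star height at most `k` form such a class (`HT.zero`, `HT.one`, ...). -/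
theorem HT_BC (k : ℕ) : BC (fun L : Language A => HT k L) :=
  ⟨HT.zero k, HT.one k, HT.letter k, HT.add, HT.mul, HT.compl⟩

namespace BC

variable {C : Language A → Prop}

/-- B1. `K = L` by extensionality (`Set.ext`). -/
theorem of_iff (_hC : BC C) {L K : Language A} (h : C L) (e : ∀ w, w ∈ K ↔ w ∈ L) : C K := by
  have hKL : K = L := Set.ext e
  rw [hKL]
  exact h

/-- B2. As `HT.top` in Closure: the complement of `0`. -/
theorem top (hC : BC C) : C ⊤ := by
  have h := hC.compl hC.zero
  have e : (0 : Language A)ᶜ = ⊤ := by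
    rw [show (0 : Language A) = ⊥ from rfl, compl_bot]
  rwa [e] at h

/-- B3. As `HT.inf` in Closure: de Morgan. -/
theorem inf (hC : BC C) {L K : Language A} (hL : C L) (hK : C K) : C (L ⊓ K) := by
  have h := hC.compl (hC.add (hC.compl hL) (hC.compl hK))
  have e : (Lᶜ + Kᶜ)ᶜ = L ⊓ K := by
    have e1 : (Lᶜ + Kᶜ : Language A) = Lᶜ ⊔ Kᶜ := rfl
    rw [e1, compl_sup, compl_compl, compl_compl]
  rwa [e] at h

/-- B4. As `HT.sdiff` in Closure. -/
theorem sdiff (hC : BC C) {L K : Language A} (hL : C L) (hK : C K) : C (L \ K) := by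
  rw [sdiff_eq]
  exact hC.inf hL (hC.compl hK)

/-- B5. As `HT.exists_fintype_of` in Closure (finite unions; induction on a Finset). -/
theorem exists_fintype_of (hC : BC C) {ι : Type} [Finite ι] (p : ι → Prop) (f : ι → Language A)
    (h : ∀ i, p i → C (f i)) : C ({w | ∃ i, p i ∧ w ∈ f i} : Set (List A)) := by
  classical
  haveI := Fintype.ofFinite ι
  have key : ∀ s : Finset ι, C ({w | ∃ i ∈ s, p i ∧ w ∈ f i} : Set (List A)) := by
    intro s
    induction s using Finset.induction_on with
    | empty =>
      refine hC.of_iff hC.zero fun w => ?_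
      constructor
      · rintro ⟨i, hi, -⟩
        exact absurd hi (Finset.notMem_empty i)
      · intro hw
        exact absurd hw (Language.notMem_zero w)
    | insert a s ha ih =>
      by_cases hp : p a
      · refine hC.of_iff (hC.add (h a hp) ih) fun w => ?_
        constructor
        · rintro ⟨i, hi, hpi, hw⟩
          rcases Finset.mem_insert.1 hi with rfl | hi
          · exact Or.inl hw
          · exact Or.inr ⟨i, hi, hpi, hw⟩
        · rintro (hw | ⟨i, hi, hpi, hw⟩)
          · exact ⟨a, Finset.mem_insert_self a s, hp, hw⟩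
          · exact ⟨i, Finset.mem_insert_of_mem hi, hpi, hw⟩
      · refine hC.of_iff ih fun w => ?_
        constructor
        · rintro ⟨i, hi, hpi, hw⟩
          rcases Finset.mem_insert.1 hi with rfl | hi
          · exact absurd hpi hp
          · exact ⟨i, hi, hpi, hw⟩
        · rintro ⟨i, hi, hpi, hw⟩
          exact ⟨i, Finset.mem_insert_of_mem hi, hpi, hw⟩
  refine hC.of_iff (key Finset.univ) fun w => ?_
  constructor
  · rintro ⟨i, hpi, hw⟩
    exact ⟨i, Finset.mem_univ i, hpi, hw⟩
  · rintro ⟨i, -, hpi, hw⟩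
    exact ⟨i, hpi, hw⟩

/-- B6. As `HT.wordsOver` in Closure (uses B5 for the letters outside `B`, `top`, `mul`,
`compl`). -/
theorem wordsOver (hC : BC C) [Finite A] (B : Set A) :
    C ({w | ∀ a ∈ w, a ∈ B} : Set (List A)) := by
  have hl : C ({w | ∃ a, a ∈ Bᶜ ∧ w ∈ ({[a]} : Language A)} : Set (List A)) :=
    hC.exists_fintype_of (fun a : A => a ∈ Bᶜ) (fun a => ({[a]} : Language A))
      (fun a _ => hC.letter a)
  have h := hC.compl (hC.mul (hC.mul hC.top hl) hC.top)
  refine hC.of_iff h fun w => ?_
  constructor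
  · intro hw hmem
    obtain ⟨x, hx, z, -, rfl⟩ := Language.mem_mul.1 hmem
    obtain ⟨u, -, y, ⟨a, ha, hy⟩, rfl⟩ := Language.mem_mul.1 hx
    have hy' : y = [a] := hy
    subst hy'
    exact ha (hw a (by simp))
  · intro hw a ha
    by_contra hB
    apply hw
    obtain ⟨u, v, rfl⟩ := List.append_of_mem ha
    refine Language.mem_mul.2 ⟨u ++ [a], Language.mem_mul.2 ⟨u, trivial, [a], ⟨a, hB, rfl⟩, rfl⟩,
      v, trivial, by simp⟩

end BC

end Vale.Agent.P329
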