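import Vale.Agent.P329.V.LDm

namespace Vale.Agent.P329

variable {A M N : Type} [Monoid M] [Monoid N]

/-- The relative aperiodicity hypothesis on the words over `D`. -/
def HRel (π : M →* N) (φ : A → M) (D : Set A) : Prop :=
  ∀ u : List A, (∀ a ∈ u, a ∈ D) →
    π (u.map φ).prod * π (u.map φ).prod = π (u.map φ).prod →
    ∃ k : ℕ, (u.map φ).prod ^ k = (u.map φ).prod ^ (k + 1)

/-- S1. Induction on `w` (`IsUnit.mul`, `isUnit_one`). -/
theorem isUnit_prod (φ : A → M) (w : List A) (hw : ∀ a ∈ w, IsUnit (φ a)) :
    IsUnit (w.map φ).prod := by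
  induction w with
  | nil => simp
  | cons a t ih =>
    rw [List.map_cons, List.prod_cons]
    exact (hw a (List.mem_cons_self ..)).mul (ih fun b hb => hw b (List.mem_cons_of_mem _ hb))

/-- S2. Words over unit letters with the same image in `N` have the same value.  Let `g, g'` be the
values of `w, w'`.  Take `k > 0` with `(π g') ^ k` idempotent (`exists_idem_pow_monoidV`), write
`k = 1 + m`, and let `z` be `w'` repeated `m` times (`(List.replicate m w').flatten`, value
`g' ^ m`).  The words `w ++ z` and `w' ++ z` are over `D`, their images in `N` are both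
`(π g') ^ k`, idempotent, so by `hrel` their values `g * g' ^ m`, `g' * g' ^ m` are aperiodic; they are
units, so both are `1` (`eq_one_of_isUnit_aper`).  Cancel the unit `g' ^ m`. -/
theorem base_determined [Finite N] (π : M →* N) (φ : A → M) (D : Set A) (hrel : HRel π φ D)
    (w w' : List A) (hw : ∀ a ∈ w, a ∈ D ∧ IsUnit (φ a)) (hw' : ∀ a ∈ w', a ∈ D ∧ IsUnit (φ a))
    (h : π (w.map φ).prod = π (w'.map φ).prod) : (w.map φ).prod = (w'.map φ).prod := by
  set g := (w.map φ).prod with hg_def
  set g' := (w'.map φ).prod with hg'_def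
  have hg : IsUnit g := isUnit_prod φ w (fun a ha => (hw a ha).2)
  have hg' : IsUnit g' := isUnit_prod φ w' (fun a ha => (hw' a ha).2)
  obtain ⟨k, hk, hidem⟩ := exists_idem_pow_monoidV (π g')
  obtain ⟨m, rfl⟩ : ∃ m, k = 1 + m := ⟨k - 1, by omega⟩
  have hzval : ∀ m : ℕ, (((List.replicate m w').flatten).map φ).prod = g' ^ m := by
    intro m
    induction m with
    | zero => simp
    | succ m ih =>
      rw [List.replicate_succ, List.flatten_cons, List.map_append, List.prod_append, ih, pow_succ']
  have hzmem : ∀ a ∈ (List.replicate m w').flatten, a ∈ D := by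
    intro a ha
    rw [List.mem_flatten] at ha
    obtain ⟨l, hl, hal⟩ := ha
    have : l = w' := List.eq_of_mem_replicate hl
    subst this
    exact (hw' a hal).1
  have key : ∀ (v : List A), (∀ a ∈ v, a ∈ D) → IsUnit (v.map φ).prod →
      π (v.map φ).prod = π g' → (v.map φ).prod * g' ^ m = 1 := by
    intro v hv hu hπ
    have hval : ((v ++ (List.replicate m w').flatten).map φ).prod = (v.map φ).prod * g' ^ m := by
      rw [List.map_append, List.prod_append, hzval]
    have hmem : ∀ a ∈ v ++ (List.replicate m w').flatten, a ∈ D := by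
      intro a ha
      rcases List.mem_append.mp ha with h1 | h1
      · exact hv a h1
      · exact hzmem a h1
    have hπv : π ((v ++ (List.replicate m w').flatten).map φ).prod = π g' ^ (1 + m) := by
      rw [hval, map_mul, map_pow, hπ, pow_add, pow_one]
    obtain ⟨K, hK⟩ := hrel (v ++ (List.replicate m w').flatten) hmem (by rw [hπv]; exact hidem)
    rw [hval] at hK
    exact eq_one_of_isUnit_aper (hu.mul (hg'.pow m)) hK
  have h1 := key w (fun a ha => (hw a ha).1) hg h
  have h2 := key w' (fun a ha => (hw' a ha).1) hg' rfl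
  exact (hg'.pow m).mul_left_inj.mp (h1.trans h2.symm)

/-- S3. Base case of the induction.  If some word `w0` over the unit letters of `D` has value `m`,
the language is `{w over these letters} ⊓ {w | π value = π m}` (by `base_determined`); otherwise it is
empty.  Use `hC.wordsOver`, `hC.inf`, `hC.zero`, `hC.of_iff`. -/
theorem base_case {C : Language A → Prop} (hC : BC C) [Finite A] [Finite N] (π : M →* N)
    (φ : A → M) (D : Set A) (hrel : HRel π φ D)
    (hN : ∀ s : N, C ({w : List A | π (w.map φ).prod = s} : Set (List A))) (m : M) :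
    C (preOn φ {a | a ∈ D ∧ IsUnit (φ a)} m) := by
  by_cases hex : ∃ w0 : List A, (∀ a ∈ w0, a ∈ D ∧ IsUnit (φ a)) ∧ (w0.map φ).prod = m
  · obtain ⟨w0, hw0, hm⟩ := hex
    refine hC.of_iff (hC.inf (hC.wordsOver {a | a ∈ D ∧ IsUnit (φ a)}) (hN (π m))) ?_
    intro w
    constructor
    · rintro ⟨h1, h2⟩
      refine ⟨h1, ?_⟩
      show π (w.map φ).prod = π m
      rw [h2]
    · rintro ⟨h1, h2⟩
      refine ⟨h1, ?_⟩
      have h2' : π (w.map φ).prod = π m := h2
      rw [← hm] at h2' ⊢
      exact base_determined π φ D hrel w w0 h1 hw0 h2'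
  · refine hC.of_iff hC.zero ?_
    intro w
    constructor
    · rintro ⟨h1, h2⟩
      exact absurd ⟨w, h1, h2⟩ hex
    · intro h
      exact absurd h (Language.notMem_zero w)

/-- S4. There is a word `U` over `B ∪ {c}` whose value is the product of the `c * t`.  Induction on
`ts`: `U = c :: v ++ U'`. -/
theorem exists_word_of_vals (φ : A → M) (c : A) (B : Set A) (ts : List M)
    (hts : ∀ t ∈ ts, t ∈ vals φ B) :
    ∃ U : List A, (∀ a ∈ U, a ∈ B ∪ {c}) ∧
      (U.map φ).prod = (ts.map (fun t => φ c * t)).prod := by
  induction ts with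
  | nil => exact ⟨[], by simp, by simp⟩
  | cons t ts ih =>
    obtain ⟨U', hU', hv'⟩ := ih (fun s hs => hts s (List.mem_cons_of_mem _ hs))
    obtain ⟨v, hv, hvt⟩ := hts t (List.mem_cons_self)
    refine ⟨c :: v ++ U', ?_, ?_⟩
    · intro a ha
      rcases List.mem_append.1 ha with h1 | h1
      · rcases List.mem_cons.1 h1 with h2 | h2
        · exact Or.inr (by rw [h2]; exact Set.mem_singleton c)
        · exact Or.inl (hv a h2)
      · exact hU' a h1
    · rw [List.map_append, List.prod_append, List.map_cons, List.prod_cons, hvt, hv',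
        List.map_cons, List.prod_cons]

/-- S5. The hypothesis passes to the local divisor.  If `ts = []` the value is `1`, take `k = 0`.
Otherwise `ts = t :: ts'`.  Let `X = (ts.map (fun t => φ c * t)).prod = φ c * X'`, the value of a word
`U` over `D` (`exists_word_of_vals`).  By `prod_psi` and `shift_prod` the element
`r = (ts.map (psi (φ c))).prod` has `r.1 = X * φ c`.  The hypothesis `hid`, read in `N` with `ldMap_val`
and `LD.mul_val _ _ (π X) _`, says `π X * (π X * π (φ c)) = π X * π (φ c)`.  By `cube_eq_sq`
(`x = π X`, `γ = π (φ c)`, `x' = π X'`) `x * x * x = x * x`; so the images of `U ++ U` and `U ++ U ++ U` are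
idempotent and `hrel` gives that `X * X` and `X * X * X` are aperiodic; `aper_of_two_three` gives `K` with
`X ^ K = X ^ (K + 1)`; conclude with `Subtype.ext` and `LD.pow_val r X _ K`. -/
theorem hrel_LD (π : M →* N) (φ : A → M) (D : Set A) (hrel : HRel π φ D) (c : A) (hcD : c ∈ D)
    (B : Set A) (hBD : B ⊆ D) : HRel (ldMap π (φ c)) (psi (φ c)) (vals φ B) := by
  intro ts hts hid
  cases ts with
  | nil => exact ⟨0, by simp⟩
  | cons t ts' =>
    obtain ⟨U, hU, hUX⟩ := exists_word_of_vals φ c B (t :: ts') hts
    have hUD : ∀ a ∈ U, a ∈ D := by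
      intro a ha
      rcases hU a ha with h | h
      · exact hBD h
      · rw [Set.mem_singleton_iff] at h
        rw [h]
        exact hcD
    obtain ⟨X, hX⟩ : ∃ X : M, X = ((t :: ts').map (fun t => φ c * t)).prod := ⟨_, rfl⟩
    obtain ⟨r, hr⟩ : ∃ r : LD (φ c), r = ((t :: ts').map (psi (φ c))).prod := ⟨_, rfl⟩
    rw [← hX] at hUX
    rw [← hr] at hid ⊢
    have hXX : X = φ c * (t * (ts'.map (fun t => φ c * t)).prod) := by
      rw [hX, List.map_cons, List.prod_cons, mul_assoc]
    have hr1 : r.1 = X * φ c := by
      rw [hr, prod_psi, shift_prod, ← hX]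
    have hm1 : (ldMap π (φ c) r).1 = π X * π (φ c) := by
      rw [ldMap_val, hr1, map_mul]
    have hid1 : π X * (π X * π (φ c)) = π X * π (φ c) := by
      have h := congrArg Subtype.val hid
      rw [LD.mul_val _ _ (π X) hm1, hm1] at h
      exact h
    have h3 : π X * π X * π X = π X * π X := by
      apply cube_eq_sq (x' := π (t * (ts'.map (fun t => φ c * t)).prod)) (γ := π (φ c))
      · rw [← map_mul, ← hXX]
      · rw [mul_assoc]
        exact hid1
    have h4 : π X * π X * (π X * π X) = π X * π X := by
      rw [← mul_assoc, h3, h3]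
    have a2 : ∃ k : ℕ, (X * X) ^ k = (X * X) ^ (k + 1) := by
      have h := hrel (U ++ U) (by
        intro a ha
        rcases List.mem_append.1 ha with h | h
        · exact hUD a h
        · exact hUD a h)
      rw [List.map_append, List.prod_append, hUX, map_mul] at h
      exact h h4
    have a3 : ∃ j : ℕ, (X * X * X) ^ j = (X * X * X) ^ (j + 1) := by
      have h := hrel (U ++ U ++ U) (by
        intro a ha
        rcases List.mem_append.1 ha with h | h
        · rcases List.mem_append.1 h with h | h
          · exact hUD a h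
          · exact hUD a h
        · exact hUD a h)
      rw [List.map_append, List.map_append, List.prod_append, List.prod_append, hUX, map_mul,
        map_mul] at h
      apply h
      rw [h3, h4]
    obtain ⟨K, hK⟩ := aper_of_two_three a2 a3
    refine ⟨K, Subtype.ext ?_⟩
    rw [LD.pow_val r X hr1 K, LD.pow_val r X hr1 (K + 1), ← hK]

/-- S6. The pulled back class contains the languages of the new base morphism.  The language is
`hat φ c B ⊤ ⊓ {w | π (φ c) * π (value of w) = r.1}`: for `w = enc c l`, `prod_enc` and `prod_psi` give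
`((l.map value).map (psi (φ c))).prod.1 = φ c * value of w`; use `Subtype.ext` and `ldMap_val`.  The second
language is a finite union of the `hN s` over the `s` with `π (φ c) * s = r.1`
(`hC.exists_fintype_of`). -/
theorem hat_atom {C : Language A → Prop} (hC : BC C) [Finite A] [Finite N] (π : M →* N)
    (φ : A → M) (c : A) (B : Set A)
    (hN : ∀ s : N, C ({w : List A | π (w.map φ).prod = s} : Set (List A))) (r : LD (π (φ c))) :
    C (hat φ c B ({ts : List M | ldMap π (φ c) (ts.map (psi (φ c))).prod = r} : Set (List M))) := by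
  have h2 := hC.exists_fintype_of (ι := N) (fun s => π (φ c) * s = r.1)
    (fun s => ({w : List A | π (w.map φ).prod = s} : Set (List A))) (fun s _ => hN s)
  refine hC.of_iff (hC.inf (hat_top_BC φ c B hC) h2) fun w => ?_
  have key : ∀ l : List (List A),
      ((ldMap π (φ c)) (((l.map (fun v => (v.map φ).prod)).map (psi (φ c))).prod)).1 =
        π (φ c) * π (((enc c l).map φ).prod) := by
    intro l
    rw [ldMap_val, prod_psi, prod_enc, List.map_map, map_mul]
    rfl
  constructor
  · rintro ⟨l, hl, rfl, h⟩
    refine ⟨⟨l, hl, rfl, trivial⟩, ?_⟩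
    refine ⟨π (((enc c l).map φ).prod), ?_, rfl⟩
    rw [← key l]
    have h' : ldMap π (φ c) (((l.map (fun v => (v.map φ).prod)).map (psi (φ c))).prod) = r := h
    rw [h']
  · rintro ⟨⟨l, hl, rfl, -⟩, s, hs, hw⟩
    refine ⟨l, hl, rfl, ?_⟩
    show ldMap π (φ c) (((l.map (fun v => (v.map φ).prod)).map (psi (φ c))).prod) = r
    apply Subtype.ext
    rw [key l]
    have hw' : π (((enc c l).map φ).prod) = s := hw
    rw [hw', hs]

end Vale.Agent.P329
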