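import Vale.Agent.P329.V.Quot

namespace Vale.Agent.P329

variable {A M N : Type} [Monoid M] [Monoid N]

/-- F1. Induction on `w` (`Prod.mk_mul_mk`, `Prod.mk_one_one`). -/
theorem prod_pair (η : A → M) (μ : A → N) (w : List A) :
    (w.map (fun a => (η a, μ a))).prod = ((w.map η).prod, (w.map μ).prod) := by
  induction w with
  | nil => rfl
  | cons a w ih => simp only [List.map_cons, List.prod_cons, ih, Prod.mk_mul_mk]

/-- F2. If `y * y = y` and `x ^ n = x ^ (n + 1)` then `(x, y) ^ (n + 1) = (x, y) ^ (n + 2)`: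
`y ^ (j + 1) = y` by induction on `j`; `x ^ (n + 1) = x ^ (n + 2)` by multiplying with `x`;
`Prod.ext`, `Prod.pow_fst`, `Prod.pow_snd`. -/
theorem pair_aper {x : M} {y : N} (hy : y * y = y) {n : ℕ} (hx : x ^ n = x ^ (n + 1)) :
    ((x, y) : M × N) ^ (n + 1) = ((x, y) : M × N) ^ (n + 1 + 1) := by
  have hyp : ∀ j : ℕ, y ^ (j + 1) = y := by
    intro j
    induction j with
    | zero => simp
    | succ j ih => rw [pow_succ, ih, hy]
  apply Prod.ext
  · simp only [Prod.pow_fst]
    rw [pow_succ x n, pow_succ x (n + 1), ← hx]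
  · simp only [Prod.pow_snd]
    rw [hyp n, hyp (n + 1)]

/-- F3. Necessary condition.  `choose P hP hL using h`; `Ks` = the concatenation of the lists
`(P m).bodies` over `m` in `Finset.univ.toList` (`List.flatMap`; `Fintype.ofFinite M`); star height 0 by
`bodies_sh`.  If `SynAll Ks u (u ++ u)` then for every `m`, `SynAll (P m).bodies u (u ++ u)`, so
`Stab (P m).lang u` (`stab_of_bodies`); choose thresholds `T m`, let `n` be their sum over `m`
(`Finset.single_le_sum`), `g` the value of `u`, `m = g ^ n`.  With `x = y = []`: `rep n u` is in `(P m).lang`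
(`prod_map_rep`), so `rep (n + 1) u` is, that is `g ^ (n + 1) = g ^ n`. -/
theorem monoid_criterion_forward [Finite M] (η : A → M)
    (h : ∀ m : M, ∃ P : GRegex A, P.sh ≤ 1 ∧ ∀ w : List A, w ∈ P.lang ↔ (w.map η).prod = m) :
    ∃ Ks : List (GRegex A), (∀ K ∈ Ks, K.sh = 0) ∧ ∀ u : List A, SynAll Ks u (u ++ u) →
      ∃ n : ℕ, (u.map η).prod ^ n = (u.map η).prod ^ (n + 1) := by
  classical
  have := Fintype.ofFinite M
  choose P hP hL using h
  refine ⟨(Finset.univ : Finset M).toList.flatMap (fun m => (P m).bodies), ?_, ?_⟩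
  · intro K hK
    rw [List.mem_flatMap] at hK
    obtain ⟨m, _, hm⟩ := hK
    exact bodies_sh (P m) (hP m) K hm
  · intro u hu
    have hs : ∀ m, Stab (P m).lang u := by
      intro m
      apply stab_of_bodies
      intro K hK
      exact hu K (List.mem_flatMap.2 ⟨m, Finset.mem_toList.2 (Finset.mem_univ m), hK⟩)
    choose T hT using hs
    refine ⟨∑ m, T m, ?_⟩
    have hle : T ((u.map η).prod ^ (∑ m, T m)) ≤ ∑ m, T m :=
      Finset.single_le_sum (f := T) (fun _ _ => Nat.zero_le _) (Finset.mem_univ _)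
    have h1 := hT ((u.map η).prod ^ (∑ m, T m)) (∑ m, T m) hle [] []
    simp only [List.nil_append, List.append_nil] at h1
    rw [hL, hL, prod_map_rep, prod_map_rep] at h1
    exact (h1.1 rfl).symm

/-- Sufficient condition. -/
theorem monoid_criterion_backward [Finite A] [Finite M] (η : A → M)
    (h : ∃ Ks : List (GRegex A), (∀ K ∈ Ks, K.sh = 0) ∧ ∀ u : List A, SynAll Ks u (u ++ u) →
      ∃ n : ℕ, (u.map η).prod ^ n = (u.map η).prod ^ (n + 1)) (T : Set M) :
    HT 1 ({w : List A | (w.map η).prod ∈ T} : Set (List A)) := by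
  obtain ⟨Ks, h0, hK⟩ := h
  obtain ⟨X, hX, f, hf, hsyn⟩ := exists_sig Ks h0
  have hfin : Finite (synCon Ks).Quotient := finite_synQuot Ks f hsyn
  let μ : A → (synCon Ks).Quotient := fun a => synCls Ks [a]
  let φ : A → M × (synCon Ks).Quotient := fun a => (η a, μ a)
  have hφ : ∀ w : List A, (w.map φ).prod = ((w.map η).prod, (w.map μ).prod) := prod_pair η μ
  have hrel : HRel (MonoidHom.snd M (synCon Ks).Quotient) φ Set.univ := by
    intro u _ hu
    rw [hφ u] at hu ⊢
    have hu' : (u.map μ).prod * (u.map μ).prod = (u.map μ).prod := hu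
    obtain ⟨n, hn⟩ := hK u (synAll_of_idem Ks u hu')
    exact ⟨n + 1, pair_aper hu' hn⟩
  have hN : ∀ s : (synCon Ks).Quotient, HT 1 ({w : List A |
      MonoidHom.snd M (synCon Ks).Quotient (w.map φ).prod = s} : Set (List A)) := by
    intro s
    refine HT.of_iff (synCls_HT Ks f hf hsyn s) fun w => ?_
    show MonoidHom.snd M (synCon Ks).Quotient (w.map φ).prod = s ↔ (w.map μ).prod = s
    rw [hφ w]
    exact Iff.rfl
  have hall := rel_main (MonoidHom.snd M (synCon Ks).Quotient) φ hrel 1 hN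
  refine HT.of_iff (HT.exists_fintype_of (k := 1)
    (fun p : M × (synCon Ks).Quotient => p.1 ∈ T)
    (fun p => ({w : List A | (w.map φ).prod = p} : Set (List A))) (fun p _ => hall p)) fun w => ?_
  constructor
  · intro hw
    refine ⟨(w.map φ).prod, ?_, rfl⟩
    rw [hφ w]
    exact hw
  · rintro ⟨p, hp, hw⟩
    have hw' : (w.map φ).prod = p := hw
    rw [hφ w] at hw'
    show (w.map η).prod ∈ T
    rw [← hw'] at hp
    exact hp

end Vale.Agent.P329
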