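import Vale.Agent.P329.V.BC

namespace Vale.Agent.P329

variable {A M : Type} [Monoid M] (φ : A → M) (c : A) (B : Set A)

/-- H0. Copy the proof of `hat_top` (Schutz), with `hC.one`, `hC.add`, `hC.wordsOver`, `hC.mul`,
`hC.letter`, `hC.of_iff` in place of the `HT` lemmas. -/
theorem hat_top_BC {C : Language A → Prop} (hC : BC C) [Finite A] : C (hat φ c B ⊤) := by
  have h := hC.add hC.one (hC.mul (hC.wordsOver (B ∪ {c})) (hC.letter c))
  refine hC.of_iff h fun w => ?_
  constructor
  · rintro ⟨l, hl, rfl, -⟩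
    rcases List.eq_nil_or_concat l with rfl | ⟨l0, v, rfl⟩
    · exact Or.inl rfl
    · refine Or.inr (Language.mem_mul.2 ⟨enc c l0 ++ v, ?_, [c], rfl, ?_⟩)
      · intro a ha
        rcases List.mem_append.1 ha with ha | ha
        · rcases mem_enc (fun u hu => hl u (by simp [hu])) a ha with h | h
          · exact Or.inl h
          · exact Or.inr h
        · exact Or.inl (hl v (by simp) a ha)
      · simp [enc_append]
  · rintro (h | h)
    · have : w = [] := h
      subst this
      exact ⟨[], by simp, by simp, trivial⟩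
    · obtain ⟨u, hu, x, hx, rfl⟩ := Language.mem_mul.1 h
      have hx' : x = [c] := hx
      subst hx'
      obtain ⟨l, v, hl, hv, rfl⟩ := enc_decomp c B u (fun a ha => by
        rcases hu a ha with h | h
        · exact Or.inl h
        · exact Or.inr h)
      refine ⟨l ++ [v], ?_, by simp [enc_append], trivial⟩
      intro x hx
      rcases List.mem_append.1 hx with hx | hx
      · exact hl x hx
      · rw [List.mem_singleton] at hx
        subst hx
        exact hv

/-- H1. See the case `zero` of `hat_SF` (Schutz). -/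
theorem hat_zero_iff (w : List A) : w ∈ hat φ c B 0 ↔ w ∈ (0 : Language A) := by
  constructor
  · rintro ⟨l, -, -, h⟩
    exact h
  · intro h
    exact absurd h (by simp)

/-- H2. See the case `one` of `hat_SF`. -/
theorem hat_one_iff (w : List A) : w ∈ hat φ c B 1 ↔ w ∈ (1 : Language A) := by
  constructor
  · rintro ⟨l, -, rfl, h⟩
    have h' : l.map (fun v => (v.map φ).prod) = [] := h
    rw [List.map_eq_nil_iff] at h'
    subst h'
    rfl
  · intro h
    have : w = [] := h
    subst this
    exact ⟨[], by simp, by simp, rfl⟩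

/-- H3. See the case `letter` of `hat_SF`. -/
theorem hat_letter_iff (t : M) (w : List A) :
    w ∈ hat φ c B {[t]} ↔ w ∈ preOn φ B t * ({[c]} : Language A) := by
  constructor
  · rintro ⟨l, hl, rfl, h⟩
    have h' : l.map (fun v => (v.map φ).prod) = [t] := h
    rw [List.map_eq_singleton_iff] at h'
    obtain ⟨v, rfl, hv⟩ := h'
    exact Language.mem_mul.2 ⟨v, ⟨hl v (by simp), hv⟩, [c], rfl, by simp⟩
  · intro h
    obtain ⟨v, ⟨hv1, hv2⟩, x, hx, rfl⟩ := Language.mem_mul.1 h
    have hx' : x = [c] := hx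
    subst hx'
    refine ⟨[v], by simpa using hv1, by simp, ?_⟩
    show [v].map (fun v => (v.map φ).prod) = [t]
    simp [hv2]

/-- H4. See the case `union` of `hat_SF`. -/
theorem hat_add_iff (K K' : Language M) (w : List A) :
    w ∈ hat φ c B (K + K') ↔ w ∈ hat φ c B K + hat φ c B K' := by
  constructor
  · rintro ⟨l, hl, rfl, h | h⟩
    · exact Or.inl ⟨l, hl, rfl, h⟩
    · exact Or.inr ⟨l, hl, rfl, h⟩
  · rintro (⟨l, hl, rfl, h⟩ | ⟨l, hl, rfl, h⟩)
    · exact ⟨l, hl, rfl, Or.inl h⟩
    · exact ⟨l, hl, rfl, Or.inr h⟩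

/-- H5. See the case `concat` of `hat_SF`. -/
theorem hat_mul_iff (K K' : Language M) (w : List A) :
    w ∈ hat φ c B (K * K') ↔ w ∈ hat φ c B K * hat φ c B K' := by
  constructor
  · rintro ⟨l, hl, rfl, h⟩
    obtain ⟨x, hx, y, hy, hxy⟩ := Language.mem_mul.1 h
    obtain ⟨l1, l2, rfl, rfl, rfl⟩ := List.map_eq_append_iff.1 hxy.symm
    refine Language.mem_mul.2 ⟨enc c l1, ⟨l1, fun v hv => hl v (by simp [hv]), rfl, hx⟩,
      enc c l2, ⟨l2, fun v hv => hl v (by simp [hv]), rfl, hy⟩, (enc_append c l1 l2).symm⟩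
  · intro h
    obtain ⟨x, ⟨l1, hl1, rfl, h1⟩, y, ⟨l2, hl2, rfl, h2⟩, rfl⟩ := Language.mem_mul.1 h
    refine ⟨l1 ++ l2, ?_, (enc_append c l1 l2).symm, ?_⟩
    · intro v hv
      rcases List.mem_append.1 hv with hv | hv
      · exact hl1 v hv
      · exact hl2 v hv
    · rw [List.map_append]
      exact Language.mem_mul.2 ⟨_, h1, _, h2, rfl⟩

/-- H6. See the case `compl` of `hat_SF` (uses `enc_inj hc`). -/
theorem hat_compl_iff (hc : c ∉ B) (K : Language M) (w : List A) :
    w ∈ hat φ c B Kᶜ ↔ w ∈ hat φ c B ⊤ \ hat φ c B K := by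
  constructor
  · rintro ⟨l, hl, rfl, h⟩
    refine ⟨⟨l, hl, rfl, trivial⟩, ?_⟩
    rintro ⟨l', hl', e, h'⟩
    have := enc_inj hc hl hl' e
    subst this
    exact h h'
  · rintro ⟨⟨l, hl, rfl, -⟩, h⟩
    exact ⟨l, hl, rfl, fun h' => h ⟨l, hl, rfl, h'⟩⟩

/-- The pulled back class is again closed. -/
theorem hat_BC {C : Language A → Prop} (hC : BC C) [Finite A] (hc : c ∉ B)
    (hP : ∀ m, C (preOn φ B m)) : BC (fun K : Language M => C (hat φ c B K)) where
  zero := hC.of_iff hC.zero (hat_zero_iff φ c B)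
  one := hC.of_iff hC.one (hat_one_iff φ c B)
  letter t := hC.of_iff (hC.mul (hP t) (hC.letter c)) (hat_letter_iff φ c B t)
  add h h' := hC.of_iff (hC.add h h') (hat_add_iff φ c B _ _)
  mul h h' := hC.of_iff (hC.mul h h') (hat_mul_iff φ c B _ _)
  compl h := hC.of_iff (hC.sdiff (hat_top_BC φ c B hC) h) (hat_compl_iff φ c B hc _)

/-- The values of the words over `B`. -/
def vals : Set M := {t | ∃ v : List A, (∀ a ∈ v, a ∈ B) ∧ (v.map φ).prod = t}

/-- H7. Copy the proof of `schutz_step` (Schutz2) with the `BC` lemmas.  The only change: the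
middle language is `preOn (psi (φ c)) (vals φ B) r`, so in the first direction one also has to
show that every entry of `l.map (fun v => (v.map φ).prod)` is in `vals φ B` (clear from `hl`), and
in the second direction one uses the second component of the membership. -/
theorem rel_step {C : Language A → Prop} (hC : BC C) [Finite A] [Finite M] (hc : c ∉ B)
    (hP : ∀ m, C (preOn φ B m))
    (hLD : ∀ r : LD (φ c), C (hat φ c B (preOn (psi (φ c)) (vals φ B) r)))
    (m : M) : C (preOn φ (B ∪ {c}) m) := by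
  have hU := hC.exists_fintype_of
    (fun i : M × LD (φ c) × M => i.1 * i.2.1.1 * i.2.2 = m)
    (fun i => preOn φ B i.1 * {[c]} *
      hat φ c B (preOn (psi (φ c)) (vals φ B) i.2.1) *
      preOn φ B i.2.2)
    (fun i _ => hC.mul (hC.mul (hC.mul (hP _) (hC.letter c)) (hLD _)) (hP _))
  refine hC.of_iff (hC.add (hP m) hU) fun w => ?_
  constructor
  · rintro ⟨hw, hm⟩
    obtain ⟨l0, v, hl, hv, rfl⟩ := enc_decomp c B w (fun a ha => by
      rcases hw a ha with h | h
      · exact Or.inl h
      · exact Or.inr h)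
    cases l0 with
    | nil => exact Or.inl ⟨hv, by simpa using hm⟩
    | cons u l =>
      refine Or.inr ⟨((u.map φ).prod, ((l.map (fun v => (v.map φ).prod)).map (psi (φ c))).prod,
        (v.map φ).prod), ?_, ?_⟩
      · show (u.map φ).prod * (((l.map (fun v => (v.map φ).prod)).map (psi (φ c))).prod).1 *
          (v.map φ).prod = m
        rw [prod_psi, ← hm]
        simp [prod_enc, mul_assoc, Function.comp_def]
      · refine Language.mem_mul.2 ⟨u ++ [c] ++ enc c l, Language.mem_mul.2 ⟨u ++ [c],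
          Language.mem_mul.2 ⟨u, ⟨hl u (by simp), rfl⟩, [c], rfl, rfl⟩, enc c l,
          ⟨l, fun x hx => hl x (List.mem_cons_of_mem _ hx), rfl, ⟨?_, rfl⟩⟩, rfl⟩, v, ⟨hv, rfl⟩,
          by simp⟩
        intro t ht
        rw [List.mem_map] at ht
        obtain ⟨x, hx, rfl⟩ := ht
        exact ⟨x, hl x (List.mem_cons_of_mem _ hx), rfl⟩
  · rintro (h | ⟨⟨q, r, s⟩, hqrs, h⟩)
    · exact ⟨fun a ha => Or.inl (h.1 a ha), h.2⟩
    · obtain ⟨x, hx, v, ⟨hv1, hv2⟩, rfl⟩ := Language.mem_mul.1 h
      obtain ⟨y, hy, z, ⟨l, hl, rfl, hr⟩, rfl⟩ := Language.mem_mul.1 hx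
      obtain ⟨u, ⟨hu1, hu2⟩, cc, hcc, rfl⟩ := Language.mem_mul.1 hy
      have hcc' : cc = [c] := hcc
      subst hcc'
      have hr' : ((l.map (fun v => (v.map φ).prod)).map (psi (φ c))).prod = r := hr.2
      constructor
      · intro a ha
        simp only [List.mem_append, List.mem_singleton] at ha
        rcases ha with ((ha | ha) | ha) | ha
        · exact Or.inl (hu1 a ha)
        · exact Or.inr ha
        · rcases mem_enc hl a ha with h | h
          · exact Or.inl h
          · exact Or.inr h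
        · exact Or.inl (hv1 a ha)
      · have hqrs' : q * r.1 * s = m := hqrs
        have hu2' : (u.map φ).prod = q := hu2
        have hv2' : (v.map φ).prod = s := hv2
        rw [← hqrs', ← hr', prod_psi, ← hu2', ← hv2']
        simp [prod_enc, mul_assoc, Function.comp_def]

end Vale.Agent.P329
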