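import Vale.Agent.P329.V.Hat

namespace Vale.Agent.P329

variable {M N : Type} [Monoid M] [Monoid N]

/-- The map between local divisors induced by a morphism. -/
def ldFun (π : M →* N) (c : M) (x : LD c) : LD (π c) :=
  ⟨π x.1, by
    obtain ⟨y, hy⟩ := x.2.1
    exact ⟨π y, by rw [hy, map_mul]⟩, by
    obtain ⟨z, hz⟩ := x.2.2
    exact ⟨π z, by rw [hz, map_mul]⟩⟩

theorem ldFun_val (π : M →* N) (c : M) (x : LD c) : (ldFun π c x).1 = π x.1 := rfl

/-- L1. `Subtype.ext`; `LD.one_val`. -/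
theorem ldFun_one (π : M →* N) (c : M) : ldFun π c 1 = 1 := by
  apply Subtype.ext
  rw [ldFun_val, LD.one_val, LD.one_val]

/-- L2. `Subtype.ext`; take `a` with `x.1 = a * c` (`x.2.2`); `LD.mul_val x y a h` on the left and
`LD.mul_val (ldFun π c x) (ldFun π c y) (π a) _` on the right. -/
theorem ldFun_mul (π : M →* N) (c : M) (x y : LD c) :
    ldFun π c (x * y) = ldFun π c x * ldFun π c y := by
  apply Subtype.ext
  obtain ⟨a, ha⟩ := x.2.2
  rw [ldFun_val, LD.mul_val x y a ha,
    LD.mul_val (ldFun π c x) (ldFun π c y) (π a) (by rw [ldFun_val, ha, map_mul]), ldFun_val, map_mul]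

/-- The induced morphism of local divisors. -/
def ldMap (π : M →* N) (c : M) : LD c →* LD (π c) where
  toFun := ldFun π c
  map_one' := ldFun_one π c
  map_mul' := ldFun_mul π c

theorem ldMap_val (π : M →* N) (c : M) (x : LD c) : (ldMap π c x).1 = π x.1 := rfl

/-- L3. As `LD.card_lt` (LocalDiv): the inclusion `LD c → M` is injective and misses `1`, because
`1 = c * y` and `1 = z * c` make `c` a unit (`isUnit_iff_exists` or build the unit by hand:
`z = z * (c * y) = y`). -/
theorem LD.card_lt_of_not_isUnit [Finite M] {c : M} (hc : ¬ IsUnit c) :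
    Nat.card (LD c) < Nat.card M := by
  have hinj : Function.Injective (fun x : LD c => x.1) := Subtype.val_injective
  have hns : ¬ Function.Surjective (fun x : LD c => x.1) := by
    intro hs
    obtain ⟨x, hx⟩ := hs 1
    obtain ⟨y, hy⟩ := x.2.1
    obtain ⟨z, hz⟩ := x.2.2
    apply hc
    have h1 : c * y = 1 := by rw [← hy]; exact hx
    have h2 : z * c = 1 := by rw [← hz]; exact hx
    have hzy : z = y := by
      calc z = z * (c * y) := by rw [h1, mul_one]
        _ = (z * c) * y := by rw [mul_assoc]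
        _ = y := by rw [h2, one_mul]
    exact ⟨⟨c, y, h1, by rw [← hzy]; exact h2⟩, rfl⟩
  have := Fintype.ofFinite M
  have hfin : Finite (LD c) := Finite.of_injective _ hinj
  have := Fintype.ofFinite (LD c)
  rw [Nat.card_eq_fintype_card, Nat.card_eq_fintype_card]
  exact Fintype.card_lt_of_injective_not_surjective _ hinj hns

/-- L4. Induction on `ts`. -/
theorem shift_prod (c : M) (ts : List M) :
    c * (ts.map (fun t => t * c)).prod = (ts.map (fun t => c * t)).prod * c := by
  induction ts with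
  | nil => simp
  | cons t ts ih =>
    rw [List.map_cons, List.map_cons, List.prod_cons, List.prod_cons, mul_assoc (c * t), ← ih]
    simp only [mul_assoc]

/-- L5. `x * x * x = x * x * (γ * x') = (x * x * γ) * x' = x * γ * x' = x * x`. -/
theorem cube_eq_sq {x x' γ : N} (h1 : x = γ * x') (h2 : x * x * γ = x * γ) :
    x * x * x = x * x := by
  calc x * x * x = x * x * (γ * x') := by rw [← h1]
    _ = (x * x * γ) * x' := by rw [mul_assoc (x * x) γ x']
    _ = x * γ * x' := by rw [h2]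
    _ = x * (γ * x') := by rw [mul_assoc]
    _ = x * x := by rw [← h1]

/-- L6. From `X ^ (2 k) = X ^ (2 k + 2)` and `X ^ (3 j) = X ^ (3 j + 3)` (rewrite the hypotheses with
`← pow_two`, `← pow_mul`, ...): with `K = 2 * k + 3 * j` one gets `X ^ (K + 1) = X ^ (K + 3) = X ^ K`. -/
theorem aper_of_two_three {X : M} (h2 : ∃ k : ℕ, (X * X) ^ k = (X * X) ^ (k + 1))
    (h3 : ∃ j : ℕ, (X * X * X) ^ j = (X * X * X) ^ (j + 1)) : ∃ K : ℕ, X ^ K = X ^ (K + 1) := by
  obtain ⟨k, hk⟩ := h2
  obtain ⟨j, hj⟩ := h3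
  have e2 : X * X = X ^ 2 := (pow_two X).symm
  have e3 : X * X * X = X ^ 3 := by rw [pow_succ, pow_two]
  rw [e2, ← pow_mul, ← pow_mul] at hk
  rw [e3, ← pow_mul, ← pow_mul] at hj
  refine ⟨2 * k + 3 * j, ?_⟩
  have a2 : X ^ (2 * k + 3 * j + 2) = X ^ (2 * k + 3 * j) := by
    have : 2 * k + 3 * j + 2 = 2 * (k + 1) + 3 * j := by ring
    rw [this, pow_add, ← hk, ← pow_add]
  have a3 : X ^ (2 * k + 3 * j + 3) = X ^ (2 * k + 3 * j) := by
    have : 2 * k + 3 * j + 3 = 2 * k + 3 * (j + 1) := by ring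
    rw [this, pow_add, ← hj, ← pow_add]
  calc X ^ (2 * k + 3 * j) = X ^ (2 * k + 3 * j + 3) := a3.symm
    _ = X ^ (2 * k + 3 * j + 2) * X := by rw [← pow_succ]
    _ = X ^ (2 * k + 3 * j) * X := by rw [a2]
    _ = X ^ (2 * k + 3 * j + 1) := by rw [← pow_succ]

/-- L7. Cancel the unit `x ^ n`. -/
theorem eq_one_of_isUnit_aper {x : M} (hx : IsUnit x) {n : ℕ} (h : x ^ n = x ^ (n + 1)) :
    x = 1 := by
  have hu : IsUnit (x ^ n) := hx.pow n
  have h2 : x ^ n * 1 = x ^ n * x := by rw [mul_one, ← pow_succ]; exact h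
  exact (hu.mul_left_cancel h2).symm

/-- L8. Pigeonhole on `i ↦ y ^ i` (`Finite.exists_ne_map_eq_of_infinite`): `y ^ i = y ^ (i + p)`,
`p > 0`; then `y ^ m = y ^ (m + t * p)` for `m ≥ i`; take `k = (i + 1) * p`.  Compare
`exists_idem_pow` in T/R5. -/
theorem exists_idem_pow_monoidV [Finite N] (y : N) : ∃ k : ℕ, 0 < k ∧ y ^ k * y ^ k = y ^ k := by
  obtain ⟨a, b, hab, hy⟩ := Finite.exists_ne_map_eq_of_infinite (fun i : ℕ => y ^ i)
  have key : ∀ i p : ℕ, 0 < p → y ^ i = y ^ (i + p) →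
      ∃ k : ℕ, 0 < k ∧ y ^ k * y ^ k = y ^ k := by
    intro i p hp h
    have h1 : ∀ t : ℕ, y ^ (i + t * p) = y ^ i := by
      intro t
      induction t with
      | zero => simp
      | succ t ih =>
        have e : i + (t + 1) * p = (i + t * p) + p := by ring
        rw [e, pow_add, ih, ← pow_add, ← h]
    have h2 : ∀ d t : ℕ, y ^ (i + d + t * p) = y ^ (i + d) := by
      intro d t
      have e : i + d + t * p = (i + t * p) + d := by ring
      rw [e, pow_add, h1 t, ← pow_add]
    refine ⟨(i + 1) * p, Nat.mul_pos (Nat.succ_pos i) hp, ?_⟩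
    have hle : i ≤ (i + 1) * p := by nlinarith
    obtain ⟨d, hd⟩ := Nat.exists_eq_add_of_le hle
    rw [← pow_add]
    have := h2 d (i + 1)
    rw [← hd] at this
    exact this
  rcases Nat.lt_or_gt_of_ne hab with h | h
  · obtain ⟨p, rfl⟩ := Nat.exists_eq_add_of_lt h
    exact key a (p + 1) (Nat.succ_pos p) (by simpa [add_assoc] using hy)
  · obtain ⟨p, rfl⟩ := Nat.exists_eq_add_of_lt h
    exact key b (p + 1) (Nat.succ_pos p) (by simpa [add_assoc] using hy.symm)

end Vale.Agent.P329
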