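import Vale.Agent.P329.V.Base

namespace Vale.Agent.P329

theorem rel_aux (n : ℕ) : ∀ (M N : Type) [Monoid M] [Finite M] [Monoid N] [Finite N]
    (π : M →* N), Nat.card M ≤ n → ∀ (A : Type) [Finite A] (φ : A → M) (D : Set A),
    HRel π φ D → ∀ C : Language A → Prop, BC C →
    (∀ s : N, C ({w : List A | π (w.map φ).prod = s} : Set (List A))) →
    ∀ m, C (preOn φ D m) := by
  induction n with
  | zero =>
    intro M N _ _ _ _ π hcard
    exact absurd hcard (by simpa using (Nat.card_pos (α := M)).ne')
  | succ n ih =>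
    intro M N _ _ _ _ π hcard A _ φ D hrel C hC hN
    classical
    have key : ∀ S : Finset A, (∀ a ∈ S, a ∈ D ∧ ¬ IsUnit (φ a)) →
        ∀ m, C (preOn φ {a | (a ∈ D ∧ IsUnit (φ a)) ∨ a ∈ S} m) := by
      intro S
      induction S using Finset.induction_on with
      | empty =>
        intro _ m
        have e : ({a | (a ∈ D ∧ IsUnit (φ a)) ∨ a ∈ (∅ : Finset A)} : Set A) =
            {a | a ∈ D ∧ IsUnit (φ a)} := by
          ext a
          simp
        rw [e]
        exact base_case hC π φ D hrel hN m
      | insert c S hcS ihS =>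
        intro hS m
        have hc := hS c (Finset.mem_insert_self c S)
        have hB : c ∉ {a | (a ∈ D ∧ IsUnit (φ a)) ∨ a ∈ S} := by
          rintro (h | h)
          · exact hc.2 h.2
          · exact hcS h
        have hS' : ∀ a ∈ S, a ∈ D ∧ ¬ IsUnit (φ a) :=
          fun a ha => hS a (Finset.mem_insert_of_mem ha)
        have hBD : {a | (a ∈ D ∧ IsUnit (φ a)) ∨ a ∈ S} ⊆ D := by
          rintro a (h | h)
          · exact h.1
          · exact (hS' a h).1
        have hP := ihS hS'
        have hlt : Nat.card (LD (φ c)) ≤ n := by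
          have := LD.card_lt_of_not_isUnit hc.2
          omega
        have hLD := ih (LD (φ c)) (LD (π (φ c))) (ldMap π (φ c)) hlt M (psi (φ c))
          (vals φ {a | (a ∈ D ∧ IsUnit (φ a)) ∨ a ∈ S}) (hrel_LD π φ D hrel c hc.1 _ hBD)
          (fun K : Language M => C (hat φ c {a | (a ∈ D ∧ IsUnit (φ a)) ∨ a ∈ S} K))
          (hat_BC φ c _ hC hB hP) (hat_atom hC π φ c _ hN)
        have := rel_step φ c _ hC hB hP hLD m
        have e : ({a | (a ∈ D ∧ IsUnit (φ a)) ∨ a ∈ insert c S} : Set A) =
            {a | (a ∈ D ∧ IsUnit (φ a)) ∨ a ∈ S} ∪ {c} := by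
          ext a
          simp only [Finset.mem_insert, Set.mem_ofPred_eq, Set.mem_union, Set.mem_singleton_iff]
          tauto
        rw [e]
        exact this
    intro m
    have := Fintype.ofFinite A
    have e : D = {a | (a ∈ D ∧ IsUnit (φ a)) ∨
        a ∈ Finset.univ.filter fun a => a ∈ D ∧ ¬ IsUnit (φ a)} := by
      ext a
      simp only [Finset.mem_filter, Finset.mem_univ, true_and, Set.mem_ofPred_eq]
      tauto
    have h := key (Finset.univ.filter fun a => a ∈ D ∧ ¬ IsUnit (φ a)) (by simp) m
    rw [← e] at h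
    exact h

/-- Relative form of the theorem of Schutzenberger over an arbitrary finite monoid `N`. -/
theorem rel_main {M N : Type} [Monoid M] [Finite M] [Monoid N] [Finite N] (π : M →* N)
    {A : Type} [Finite A] (φ : A → M) (hrel : HRel π φ Set.univ) (k : ℕ)
    (hN : ∀ s : N, HT k ({w : List A | π (w.map φ).prod = s} : Set (List A))) (m : M) :
    HT k ({w : List A | (w.map φ).prod = m} : Set (List A)) := by
  have h := rel_aux (Nat.card M) M N π le_rfl A φ Set.univ hrel (fun L => HT k L) (HT_BC k) hN m
  refine HT.of_iff h fun w => ?_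
  constructor
  · intro hw
    exact ⟨fun _ _ => trivial, hw⟩
  · intro hw
    exact hw.2

end Vale.Agent.P329
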