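import Vale.Agent.P329.T.R7
import Vale.Agent.P329.V.Main

namespace Vale.Agent.P329

variable {A : Type}

/-- The congruence: same contexts in the star of every language of the list. -/
def synCon (Ks : List (GRegex A)) : Con (FreeMonoid A) where
  r u v := SynAll Ks (FreeMonoid.toList u) (FreeMonoid.toList v)
  iseqv := ⟨fun u => SynAll.refl Ks _, fun h => h.symm, fun h h' => h.trans h'⟩
  mul' := fun h h' => by
    simpa [FreeMonoid.toList_mul] using SynAll.append h h'

/-- The class of a word. -/
def synCls (Ks : List (GRegex A)) (w : List A) : (synCon Ks).Quotient :=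
  ((FreeMonoid.ofList w : FreeMonoid A) : (synCon Ks).Quotient)

/-- Q1. `(synCon Ks).eq` (or `Quotient.sound` / `Quotient.exact`), then the relation unfolds by `Iff.rfl`. -/
theorem synCls_eq_iff (Ks : List (GRegex A)) (u v : List A) :
    synCls Ks u = synCls Ks v ↔ SynAll Ks u v := by
  unfold synCls
  rw [(synCon Ks).eq]
  exact Iff.rfl

/-- Q2. Induction on `w`; `synCls Ks (a :: w) = synCls Ks [a] * synCls Ks w` holds by `rfl` (the coercion
to the quotient is multiplicative: `Con.coe_mul`, and `FreeMonoid.ofList (a :: w) = ofList [a] * ofList w`). -/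
theorem prod_synCls (Ks : List (GRegex A)) (w : List A) :
    (w.map (fun a => synCls Ks [a])).prod = synCls Ks w := by
  induction w with
  | nil => rfl
  | cons a w ih =>
    rw [List.map_cons, List.prod_cons, ih]
    rfl

/-- Q3. Every element is `synCls Ks w` (`Quotient.inductionOn` / `Con.induction_on`).  With `f` from the
hypothesis, the map `Set.range f → quotient`, `f w ↦ synCls Ks w` (choose a preimage) is onto by
`synCls_eq_iff`; `Finite.of_surjective`. -/
theorem finite_synQuot (Ks : List (GRegex A)) {X : Type} [Finite X] (f : List A → X)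
    (hf : ∀ u v, f u = f v → SynAll Ks u v) : Finite (synCon Ks).Quotient := by
  have hsurj : Function.Surjective
      (fun x : Set.range f => synCls Ks x.2.choose) := by
    intro q
    induction q using Con.induction_on with
    | H w =>
      refine ⟨⟨f (FreeMonoid.toList w), ⟨_, rfl⟩⟩, ?_⟩
      have hx : (⟨f (FreeMonoid.toList w), ⟨_, rfl⟩⟩ : Set.range f).2.choose_spec =
        (⟨f (FreeMonoid.toList w), ⟨_, rfl⟩⟩ : Set.range f).2.choose_spec := rfl
      exact (synCls_eq_iff Ks _ _).2
        (hf _ _ (⟨f (FreeMonoid.toList w), ⟨_, rfl⟩⟩ : Set.range f).2.choose_spec)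
  exact Finite.of_surjective _ hsurj

/-- Q4. `hf.of_determined` with `synCls_eq_iff` gives `Meas (synCls Ks)`; rewrite with `prod_synCls`. -/
theorem synCls_HT (Ks : List (GRegex A)) {X : Type} [Finite X] (f : List A → X) (hf : Meas f)
    (hs : ∀ u v, f u = f v → SynAll Ks u v) (s : (synCon Ks).Quotient) :
    HT 1 ({w : List A | (w.map (fun a => synCls Ks [a])).prod = s} : Set (List A)) := by
  have hm : Meas (synCls Ks) :=
    hf.of_determined fun u v h => (synCls_eq_iff Ks u v).2 (hs u v h)
  refine HT.of_iff (hm s) fun w => ?_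
  show (w.map (fun a => synCls Ks [a])).prod = s ↔ synCls Ks w = s
  rw [prod_synCls]

/-- Q5. By `prod_synCls` the hypothesis says `synCls Ks u * synCls Ks u = synCls Ks u`; the product is
`synCls Ks (u ++ u)` by `rfl`; conclude with `synCls_eq_iff` and `SynAll.symm`. -/
theorem synAll_of_idem (Ks : List (GRegex A)) (u : List A)
    (h : (u.map (fun a => synCls Ks [a])).prod * (u.map (fun a => synCls Ks [a])).prod =
      (u.map (fun a => synCls Ks [a])).prod) : SynAll Ks u (u ++ u) := by
  rw [prod_synCls] at h
  have h2 : synCls Ks (u ++ u) = synCls Ks u := h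
  exact ((synCls_eq_iff Ks _ _).1 h2).symm

end Vale.Agent.P329
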